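import Vale.Agent.P240.U.Main

/-! P240 U/Psl: elimination of PSL and PSU components. -/

namespace Vale.Agent.P240

open Matrix

variable {n : ℕ} {K : Type} [Field K]

theorem range_PSL : (ProjectiveSpecialLinearGroup.toPGL :
    ProjectiveSpecialLinearGroup (Fin n) K →* ProjGenLinGroup (Fin n) K).range = Pr (SG n K) := by
  refine le_antisymm ?_ ?_
  · rintro _ ⟨x, rfl⟩
    obtain ⟨g, rfl⟩ := QuotientGroup.mk_surjective x
    exact ⟨SpecialLinearGroup.toGL g, MonoidHom.mem_ker.2 (Units.ext g.2), rfl⟩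
  · rintro _ ⟨g, hg, rfl⟩
    have h1 : (g : Matrix (Fin n) (Fin n) K).det = 1 := congrArg Units.val (MonoidHom.mem_ker.1 hg)
    exact ⟨QuotientGroup.mk ⟨g, h1⟩, congrArg ProjGenLinGroup.mk (Units.ext rfl)⟩

theorem elim_A [Finite K] {G : Type} [Group G] [Finite G] (hG : MinHyp 2 G) (hn : Odd n) (h3 : 3 ≤ n)
    (h2 : (2 : K) ≠ 0) {L : Subgroup G} (hL : L.IsSubnormal) (hs : IsSimpleGroup L)
    (hq : 100 * Nat.gcd (2 * n) (Nat.card K - 1) ≤ Nat.card K)
    (hq' : IsSquare (Nat.card K) → (100 * Nat.gcd (2 * n) (Nat.card K - 1)) ^ 2 ≤ Nat.card K)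
    (e : L ≃* ProjectiveSpecialLinearGroup (Fin n) K) : HQ 2 (⊤ : Subgroup G) := by
  have hg : 0 < Nat.gcd (2 * n) (Nat.card K - 1) := Nat.gcd_pos_of_pos_left _ (by omega)
  refine fin_core hG hL hs (Subgroup.map_mono le_top) (fun p _ y _ => ?_)
    (fun x hx => cent_A h2 (by omega) hn h3 hx.1)
    (fun A _ _ hsq => pc_A h2 hn h3 hq hq' A hsq)
    (cmp_PSL h2 hn h3 ((e.trans (MonoidHom.ofInjective
      ProjectiveSpecialLinearGroup.toPGL_injective)).trans (MulEquiv.subgroupCongr range_PSL)))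
  obtain ⟨g, hg⟩ := ProjGenLinGroup.mk_surjective (act n K p y)
  exact ⟨g, trivial, hg⟩

end Vale.Agent.P240
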