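import Vale.Agent.P240.U.Conj

/-! P240 U/Cnt (automorphisms of PSL, n odd; auxiliary names end with `_UCnt`). Plan: E = range of es is finite; φ maps it into itself (induction on s, es (insert i s) = es {i} * es s by es_mul), injectively, hence onto (Set.Finite.injOn_iff_bijOn_of_mapsTo). Let φ (es {i}) = es s. For every s1 with the cardinality of s, es s1 = z (es s) z⁻¹ (es_conj), z = φ z1, es s1 = φ (es r), so es r = z1 (es {i}) z1⁻¹ and es r = es {k} for some k (es_card, es_compl). The map s1 to k is injective on powersetCard (es_inj, n odd), so choose n (card s) ≤ n (Finset.card_powersetCard); card s is not 0 or n since es {i} is not 1; binom. The map i to k is injective, Equiv.ofBijective. -/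

namespace Vale.Agent.P240

open Matrix

variable {n : ℕ} {K : Type} [Field K] {i j k : Fin n} {r s : Finset (Fin n)}
  {φ : ProjGenLinGroup (Fin n) K → ProjGenLinGroup (Fin n) K}

theorem one_UCnt (h : r.card = 1 ∨ r.card + 1 = n) : ∃ k, es K r = es K {k} := by
  rcases h with h | h
  · obtain ⟨k, rfl⟩ := Finset.card_eq_one.1 h
    exact ⟨k, rfl⟩
  · have e := Finset.card_add_card_compl r
    rw [Fintype.card_fin] at e
    obtain ⟨k, hk⟩ := Finset.card_eq_one.1 (by omega : rᶜ.card = 1)
    exact ⟨k, by rw [← hk, es_compl]⟩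

theorem into_UCnt (hn : Odd n) (hφ : Au (Pr (SG n K)) φ) (h : ∀ i, ∃ s, φ (es K {i}) = es K s)
    (r : Finset (Fin n)) : ∃ s, φ (es K r) = es K s := by
  induction r using Finset.induction_on with
  | empty => exact ⟨∅, by rw [es_empty, hφ.one]⟩
  | insert i r hi ih =>
    obtain ⟨a, ha⟩ := h i
    obtain ⟨b, hb⟩ := ih
    have e : insert i r = symmDiff {i} r := by
      rw [Finset.insert_eq, Disjoint.symmDiff_eq_sup (Finset.disjoint_singleton_left.2 hi)]
      rfl
    exact ⟨symmDiff a b, by
      rw [e, ← es_mul, hφ.mul _ (es_mem hn _) _ (es_mem hn _), ha, hb, es_mul]⟩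

theorem onto_UCnt (hn : Odd n) (hφ : Au (Pr (SG n K)) φ) (h : ∀ i, ∃ s, φ (es K {i}) = es K s)
    (s : Finset (Fin n)) : ∃ r, φ (es K r) = es K s := by
  have h1 : Set.MapsTo φ (Set.range (es (n := n) K)) (Set.range (es (n := n) K)) := by
    rintro _ ⟨r, rfl⟩
    obtain ⟨a, ha⟩ := into_UCnt hn hφ h r
    exact ⟨a, ha.symm⟩
  have h2 : Set.InjOn φ (Set.range (es (n := n) K)) := by
    rintro _ ⟨a, rfl⟩ _ ⟨b, rfl⟩ e
    exact hφ.inj _ (es_mem hn _) _ (es_mem hn _) e
  obtain ⟨_, ⟨r, rfl⟩, e⟩ :=
    (((Set.finite_range _).injOn_iff_bijOn_of_mapsTo h1).1 h2).surjOn ⟨s, rfl⟩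
  exact ⟨r, e⟩

theorem ext_E (h2 : (2 : K) ≠ 0) (hn : Odd n) (h3 : 3 ≤ n) (hφ : Au (Pr (SG n K)) φ)
    (h : ∀ i, ∃ s, φ (es K {i}) = es K s) :
    ∃ π : Equiv.Perm (Fin n), ∀ i, φ (es K {i}) = es K {π i} := by
  have hk : ∀ i, ∃ k, φ (es K {i}) = es K {k} := fun i => by
    obtain ⟨s, hs⟩ := h i
    have h1 : ∀ t : Finset (Fin n), ∃ k, t.card = s.card → φ (es K {k}) = es K t := fun t => by
      by_cases ht : t.card = s.card
      · obtain ⟨z, hz, e⟩ := es_conj (K := K) ht
        obtain ⟨y, hy, rfl⟩ := hφ.surj z hz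
        obtain ⟨r, hr⟩ := onto_UCnt hn hφ h t
        have m1 := (Pr (SG n K)).mul_mem hy (es_mem hn {i})
        have m2 := (Pr (SG n K)).inv_mem hy
        have e1 : es K r = y * es K {i} * y⁻¹ :=
          hφ.inj _ (es_mem hn r) _ ((Pr (SG n K)).mul_mem m1 m2) (by
            rw [hφ.mul _ m1 _ m2, hφ.mul _ hy _ (es_mem hn {i}), hφ.inv hy, hs, hr, e])
        have e2 := es_card h2 e1
        rw [Finset.card_singleton] at e2
        obtain ⟨k, e3⟩ := one_UCnt (K := K) e2
        exact ⟨k, fun _ => e3 ▸ hr⟩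
      · exact ⟨i, fun a => (ht a).elim⟩
    choose g hg using h1
    have hc : (Finset.powersetCard s.card (Finset.univ : Finset (Fin n))).card ≤
        (Finset.univ : Finset (Fin n)).card := by
      refine Finset.card_le_card_of_injOn g (fun _ _ => Finset.mem_univ _) fun a ha b hb e => ?_
      have ha' := (Finset.mem_powersetCard.1 ha).2
      have hb' := (Finset.mem_powersetCard.1 hb).2
      have e1 : es K a = es K b := by rw [← hg a ha', ← hg b hb', e]
      refine (es_inj h2 e1).resolve_right fun e2 => ?_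
      have e3 := Finset.card_add_card_compl b
      rw [← e2, Fintype.card_fin, ha', hb'] at e3
      obtain ⟨m, hm⟩ := hn
      omega
    rw [Finset.card_powersetCard, Finset.card_univ, Fintype.card_fin] at hc
    have hne : es K s ≠ es K (∅ : Finset (Fin n)) := fun e => by
      have e1 : es K {i} = es K (∅ : Finset (Fin n)) :=
        hφ.inj _ (es_mem hn _) _ (es_mem hn _) (by rw [hs, e, es_empty, hφ.one])
      rcases es_inj h2 e1 with e2 | e2
      · exact Finset.singleton_ne_empty i e2
      · have e3 := congrArg Finset.card e2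
        rw [Finset.card_singleton, Finset.compl_empty, Finset.card_univ, Fintype.card_fin] at e3
        omega
    have h0 : 0 < s.card := Finset.card_pos.2 (Finset.nonempty_iff_ne_empty.2 fun e => hne (by rw [e]))
    have h4 : 0 < sᶜ.card := Finset.card_pos.2 (Finset.nonempty_iff_ne_empty.2 fun e =>
      hne (by rw [← es_compl s, e]))
    have e3 := Finset.card_add_card_compl s
    rw [Fintype.card_fin] at e3
    obtain ⟨k, e4⟩ := one_UCnt (K := K) (binom hc h0 (by omega))
    exact ⟨k, hs.trans e4⟩
  choose f hf using hk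
  have hi : Function.Injective f := fun a b e => by
    have e1 : es K {a} = es K {b} :=
      hφ.inj _ (es_mem hn _) _ (es_mem hn _) (by rw [hf, hf, e])
    rcases es_inj h2 e1 with e2 | e2
    · exact Finset.singleton_injective e2
    · have e3 := Finset.card_add_card_compl ({b} : Finset (Fin n))
      rw [← e2, Finset.card_singleton, Finset.card_singleton, Fintype.card_fin] at e3
      omega
  exact ⟨Equiv.ofBijective f (Finite.injective_iff_bijective.1 hi), hf⟩

end Vale.Agent.P240
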