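import Vale.Agent.P240.U.Diag

/-! P240 U/DiagP (automorphisms of PSL, n odd; auxiliary names end with `_UDiagP`). lift_inv: g * g = scalar c with c ^ n = 1, n = 2 m + 1; divide g by the scalar c ^ (m + 1). lift_comm: g g1 = c g1 g, determinants give c ^ n = 1, conjugating twice gives c ^ 2 = 1. Use ProjGenLinGroup.mk_eq_mk_iff, mk_scalar. -/

namespace Vale.Agent.P240

open Matrix

variable {n : ℕ} {K : Type} [Field K] {i j k : Fin n} {r s : Finset (Fin n)}
  {φ : ProjGenLinGroup (Fin n) K → ProjGenLinGroup (Fin n) K}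

theorem cen_UDiagP (u : Kˣ) (g : GL (Fin n) K) :
    GeneralLinearGroup.scalar (Fin n) u * g = g * GeneralLinearGroup.scalar (Fin n) u :=
  (Subgroup.mem_center_iff.1 (ProjGenLinGroup.mk_eq_one.1 (ProjGenLinGroup.mk_scalar u)) g).symm

theorem det_UDiagP (u : Kˣ) :
    GeneralLinearGroup.det (GeneralLinearGroup.scalar (Fin n) u) = u ^ n := by
  ext
  simp [GeneralLinearGroup.scalar]

theorem lift_inv (hn : Odd n) {a : ProjGenLinGroup (Fin n) K} (ha : a ∈ Pr (SG n K))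
    (sq : a * a = 1) : ∃ g : GL (Fin n) K, g * g = 1 ∧ ProjGenLinGroup.mk g = a := by
  obtain ⟨g, hg, rfl⟩ := ha
  obtain ⟨m, hm⟩ := hn
  rw [← map_mul, ← map_one ProjGenLinGroup.mk, ProjGenLinGroup.mk_eq_mk_iff] at sq
  obtain ⟨u, hu⟩ := sq
  have d : GeneralLinearGroup.det g = 1 := hg
  have e := congrArg GeneralLinearGroup.det hu
  rw [map_mul, map_mul, d, det_UDiagP, map_one, one_mul, one_mul] at e
  refine ⟨g * GeneralLinearGroup.scalar (Fin n) (u ^ (m + 1)), ?_, by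
    rw [map_mul, ProjGenLinGroup.mk_scalar, mul_one]⟩
  have e2 : u ^ (m + 1) * u ^ (m + 1) = u := by
    rw [← pow_add, show m + 1 + (m + 1) = n + 1 by omega, pow_succ, e, one_mul]
  rw [mul_assoc, ← mul_assoc (GeneralLinearGroup.scalar (Fin n) (u ^ (m + 1))), cen_UDiagP,
    mul_assoc, ← map_mul, e2, ← mul_assoc, hu]

theorem lift_comm (hn : Odd n) {g g₁ : GL (Fin n) K} (sq : g * g = 1)
    (h : ProjGenLinGroup.mk g * ProjGenLinGroup.mk g₁ = ProjGenLinGroup.mk g₁ * ProjGenLinGroup.mk g) :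
    g * g₁ = g₁ * g := by
  obtain ⟨m, hm⟩ := hn
  rw [← map_mul, ← map_mul, ProjGenLinGroup.mk_eq_mk_iff] at h
  obtain ⟨u, hu⟩ := h
  have e := congrArg GeneralLinearGroup.det hu
  rw [map_mul, map_mul, map_mul, det_UDiagP, mul_comm (GeneralLinearGroup.det g₁),
    mul_eq_left] at e
  have a1 : g₁ * g * g = g * g₁ * g * GeneralLinearGroup.scalar (Fin n) u := by
    rw [← hu, mul_assoc (g * g₁), cen_UDiagP, ← mul_assoc]
  have a2 : g * g₁ * g = g * g * g₁ * GeneralLinearGroup.scalar (Fin n) u := by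
    rw [mul_assoc g g₁, ← hu, mul_assoc g g, mul_assoc g (g * g₁)]
  rw [a2, mul_assoc g₁, sq, one_mul, mul_one, mul_assoc, ← map_mul, left_eq_mul] at a1
  have a4 : GeneralLinearGroup.scalar (Fin n) u = 1 := by
    have a5 : GeneralLinearGroup.scalar (Fin n) (u ^ n) = 1 := by rw [e, map_one]
    have a6 : u ^ n = (u * u) ^ m * u := by
      rw [← pow_two, ← pow_mul, ← pow_succ, ← hm]
    rwa [a6, map_mul, map_pow, a1, one_pow, one_mul] at a5
  rw [← hu, a4, mul_one]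

theorem diag_P (h2 : (2 : K) ≠ 0) (hn : Odd n) {ι : Type} [Finite ι]
    (t : ι → ProjGenLinGroup (Fin n) K) (ht : ∀ a, t a ∈ Pr (SG n K)) (sq : ∀ a, t a * t a = 1)
    (comm : ∀ a b, t a * t b = t b * t a) :
    ∃ y : ProjGenLinGroup (Fin n) K, ∀ a, ∃ s, t a = y * es K s * y⁻¹ := by
  choose g hg1 hg2 using fun a => lift_inv hn (ht a) (sq a)
  obtain ⟨y, hy⟩ := diag_GL h2 g hg1 fun a b => lift_comm hn (hg1 a) (by rw [hg2, hg2, comm])
  refine ⟨ProjGenLinGroup.mk y, fun a => ?_⟩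
  obtain ⟨s, hs⟩ := hy a
  exact ⟨s, by rw [← hg2, hs, map_mul, map_mul, map_inv, es]⟩

end Vale.Agent.P240
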