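import Vale.Agent.P240.U.Defs
import Vale.Agent.P240.Lift

/-! P240 U/Bas (automorphisms of PSL, n odd; auxiliary names end with `_UBas`). Use dg_mul, ProjGenLinGroup.mk_eq_mk_iff, mk_scalar. es_mem: the determinant is 1 or -1; in the second case multiply by the scalar -1. -/

namespace Vale.Agent.P240

open Matrix

variable {n : ℕ} {K : Type} [Field K] {i j k : Fin n} {r s : Finset (Fin n)}
  {φ : ProjGenLinGroup (Fin n) K → ProjGenLinGroup (Fin n) K}

theorem sc_UBas (u : Kˣ) : GeneralLinearGroup.scalar (Fin n) u = dg fun _ => u :=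
  Units.ext rfl

theorem inj_UBas {d d' : Fin n → Kˣ} (h : dg d = dg d') : d = d' := by
  funext a
  have h1 := congrArg (fun x : GL (Fin n) K => (x : Matrix (Fin n) (Fin n) K) a a) h
  simp only [dg, diagonal_apply_eq] at h1
  exact Units.ext h1

theorem mul_UBas (r s : Finset (Fin n)) : sg K r * sg K s = sg K (symmDiff r s) := by
  rw [sg, sg, sg, dg_mul]
  refine congrArg dg (funext fun a => ?_)
  by_cases h1 : a ∈ r <;> by_cases h2 : a ∈ s <;> simp [Finset.mem_symmDiff, h1, h2]

theorem compl_UBas (s : Finset (Fin n)) : es K sᶜ = es K s := by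
  refine ProjGenLinGroup.mk_eq_mk_iff.2 ⟨-1, ?_⟩
  rw [sc_UBas, sg, sg, dg_mul]
  refine congrArg dg (funext fun a => ?_)
  by_cases h1 : a ∈ s <;> simp [h1]

theorem even_UBas (h : Even s.card) : sg K s ∈ SG n K := by
  refine MonoidHom.mem_ker.2 (Units.ext ?_)
  rw [GeneralLinearGroup.val_det_apply, sg_val, det_diagonal, Units.val_one]
  have h1 : ∀ a : Fin n, (((if a ∈ s then -1 else 1 : Kˣ)) : K) = if a ∈ s then -1 else 1 := by
    intro a
    split_ifs <;> simp
  simp only [h1]
  rw [Finset.prod_ite_mem, Finset.univ_inter, Finset.prod_const, h.neg_one_pow]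

theorem es_mem (hn : Odd n) (s : Finset (Fin n)) : es K s ∈ Pr (SG n K) := by
  rcases Nat.even_or_odd s.card with h | h
  · exact ⟨sg K s, even_UBas h, rfl⟩
  · rw [← compl_UBas]
    refine ⟨sg K sᶜ, even_UBas ?_, rfl⟩
    have h1 : s.card + sᶜ.card = n := by rw [Finset.card_add_card_compl, Fintype.card_fin]
    rw [← h1] at hn
    exact (Nat.odd_add.1 hn).1 h

theorem es_mul (r s : Finset (Fin n)) : es K r * es K s = es K (symmDiff r s) := by
  rw [es, es, es, ← map_mul, mul_UBas]

theorem es_empty : es K (∅ : Finset (Fin n)) = 1 := by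
  have h : sg K (∅ : Finset (Fin n)) = 1 := by
    refine Units.ext ?_
    rw [sg_val]
    simp
  rw [es, h, map_one]

theorem es_sq (s : Finset (Fin n)) : es K s * es K s = 1 := by
  rw [es_mul, symmDiff_self, Finset.bot_eq_empty, es_empty]

theorem es_comm (r s : Finset (Fin n)) : es K r * es K s = es K s * es K r := by
  rw [es_mul, es_mul, symmDiff_comm]

theorem es_compl (s : Finset (Fin n)) : es K sᶜ = es K s := by
  exact compl_UBas s

theorem es_inj (h2 : (2 : K) ≠ 0) (h : es K r = es K s) : r = s ∨ r = sᶜ := by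
  obtain ⟨u, hu⟩ := ProjGenLinGroup.mk_eq_mk_iff.1 h
  rw [sc_UBas, sg, sg, dg_mul] at hu
  have h1 := inj_UBas hu
  have hne : (-1 : Kˣ) ≠ 1 := fun e => by
    have h4 : (-1 : K) = 1 := by simpa using congrArg Units.val e
    exact h2 (by linear_combination -h4)
  have h3 : ∀ a, (if a ∈ r then (-1 : Kˣ) else 1) * u = if a ∈ s then -1 else 1 :=
    fun a => congrFun h1 a
  by_cases hu1 : u = 1
  · refine Or.inl (Finset.ext fun a => ?_)
    have h4 := h3 a
    rw [hu1, mul_one] at h4
    by_cases a1 : a ∈ r <;> by_cases a2 : a ∈ s <;> simp only [a1, a2, if_true, if_false] at h4 ⊢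
    · exact absurd h4 hne
    · exact absurd h4.symm hne
  · refine Or.inr (Finset.ext fun a => ?_)
    have h4 := h3 a
    rw [Finset.mem_compl]
    by_cases a1 : a ∈ r <;> by_cases a2 : a ∈ s <;>
      simp only [a1, a2, if_true, if_false, not_true, not_false_iff] at h4 ⊢
    · exact absurd (by simpa using h4) hu1
    · exact absurd (by simpa using h4) hu1

theorem Au.one {P : Type} [Group P] {L : Subgroup P} {φ : P → P} (h : Au L φ) : φ 1 = 1 := by
  have h1 := h.mul 1 L.one_mem 1 L.one_mem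
  rw [mul_one] at h1
  exact left_eq_mul.1 h1

theorem Au.inv {P : Type} [Group P] {L : Subgroup P} {φ : P → P} (h : Au L φ) {x : P} (hx : x ∈ L) :
    φ x⁻¹ = (φ x)⁻¹ := by
  have h1 := h.mul x hx x⁻¹ (L.inv_mem hx)
  rw [mul_inv_cancel, h.one] at h1
  exact eq_inv_of_mul_eq_one_right h1.symm

theorem Au.pow {P : Type} [Group P] {L : Subgroup P} {φ : P → P} (h : Au L φ) {x : P} (hx : x ∈ L)
    (m : ℕ) : φ (x ^ m) = φ x ^ m := by
  induction m with
  | zero => rw [pow_zero, pow_zero, h.one]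
  | succ m ih => rw [pow_succ, pow_succ, h.mul _ (L.pow_mem hx m) x hx, ih]

theorem Au.comp {P : Type} [Group P] {L : Subgroup P} {φ : P → P} (h : Au L φ) (a : MulAut P)
    (ha : ∀ x, x ∈ L ↔ a x ∈ L) : Au L fun x => a (φ x) := by
  refine ⟨fun x hx => (ha _).1 (h.mem x hx), fun x hx y hy => by rw [h.mul x hx y hy, map_mul],
    fun x hx y hy e => h.inj x hx y hy (a.injective e), fun y hy => ?_⟩
  obtain ⟨x, hx, e⟩ := h.surj (a.symm y) ((ha _).2 (by rwa [MulEquiv.apply_symm_apply]))
  exact ⟨x, hx, by rw [e, MulEquiv.apply_symm_apply]⟩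

end Vale.Agent.P240
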