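import Vale.Agent.P240.U.Defs

/-! P240 U/Bas2 (automorphisms of PSL, n odd; auxiliary names end with `_UBas2`). Use xx_val, ProjGenLinGroup.mk_eq_mk_iff and compare entries; single_mul_single_same, single_mul_single_of_ne; SpecialLinearGroup.transvection_add. -/

namespace Vale.Agent.P240

open Matrix

variable {n : ℕ} {K : Type} [Field K] {i j k : Fin n} {r s : Finset (Fin n)}
  {φ : ProjGenLinGroup (Fin n) K → ProjGenLinGroup (Fin n) K}

theorem xp_mem (h : i ≠ j) (t : K) : xp h t ∈ Pr (SG n K) := by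
  refine Subgroup.mem_map_of_mem _ (Units.ext ?_)
  exact (SpecialLinearGroup.transvection h t).2

theorem add_UBas2 (h : i ≠ j) (a b : K) : xx h (a + b) = xx h a * xx h b := by
  rw [xx, xx, xx, SpecialLinearGroup.transvection_add, map_mul]

theorem zero_UBas2 (h : i ≠ j) : xx h (0 : K) = 1 := by
  rw [xx, SpecialLinearGroup.transvection_coeff_zero, map_one]

theorem sc_UBas2 {g g' : GL (Fin n) K} (e : ProjGenLinGroup.mk g = ProjGenLinGroup.mk g') :
    ∃ u : K, ∀ a b, (g : Matrix (Fin n) (Fin n) K) a b * u = (g' : Matrix (Fin n) (Fin n) K) a b := by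
  obtain ⟨u, rfl⟩ := ProjGenLinGroup.mk_eq_mk_iff.1 e
  refine ⟨u, fun a b => ?_⟩
  exact (mul_diagonal (fun _ => (u : K)) (g : Matrix (Fin n) (Fin n) K) a b).symm

theorem xp_add (h : i ≠ j) (a b : K) : xp h (a + b) = xp h a * xp h b := by
  rw [xp, xp, xp, add_UBas2, map_mul]

theorem xp_zero (h : i ≠ j) : xp h (0 : K) = 1 := by
  rw [xp, zero_UBas2, map_one]

theorem xp_inj (h : i ≠ j) {a b : K} (e : xp h a = xp h b) : a = b := by
  obtain ⟨u, hu⟩ := sc_UBas2 e
  have h1 := hu i i
  have h2 := hu i j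
  simp only [xx_val, Matrix.add_apply, one_apply_eq, single_apply_of_col_ne _ _ h.symm, add_zero, one_mul,
    one_apply_ne h, single_apply_same, zero_add] at h1 h2
  rwa [h1, mul_one] at h2

theorem xp_col (h : i ≠ j) (h' : k ≠ j) (a b : K) : xp h a * xp h' b = xp h' b * xp h a := by
  rw [xp, xp, ← map_mul, ← map_mul]
  refine congrArg _ (Units.ext ?_)
  simp only [Units.val_mul, xx_val, mul_add, add_mul, one_mul, mul_one,
    single_mul_single_of_ne _ _ _ _ h.symm, single_mul_single_of_ne _ _ _ _ h'.symm, add_zero]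
  abel

theorem xp_ncomm (h : i ≠ j) (h' : j ≠ k) {a b : K} (e : xp h a * xp h' b = xp h' b * xp h a) :
    a = 0 ∨ b = 0 := by
  rw [xp, xp, ← map_mul, ← map_mul] at e
  obtain ⟨u, hu⟩ := sc_UBas2 e
  have h1 := hu i j
  have h2 := hu i k
  have h3 : ∀ c, (single j k b * single i j a : Matrix (Fin n) (Fin n) K) i c = 0 := fun c =>
    single_mul_apply_of_ne _ _ _ _ _ h _
  simp only [Units.val_mul, xx_val, mul_add, add_mul, one_mul, mul_one, Matrix.add_apply, h3,
    single_mul_single_same, single_apply_same, one_apply_ne h, single_apply_of_row_ne h.symm,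
    single_apply_of_col_ne _ _ h', single_apply_of_col_ne _ _ h'.symm, zero_add, add_zero] at h1 h2
  rcases eq_or_ne a 0 with ha | ha
  · exact Or.inl ha
  · have h4 : u = 1 := mul_left_cancel₀ ha (h1.trans (mul_one a).symm)
    rw [h4, mul_one, mul_one, add_eq_left] at h2
    exact mul_eq_zero.1 h2

theorem xp_rel (h : i ≠ j) (h' : j ≠ k) (h'' : i ≠ k) (a b : K) :
    xp h a * xp h' b = xp h'' (a * b) * (xp h' b * xp h a) := by
  rw [xp, xp, xp, ← map_mul, ← map_mul, ← map_mul]
  refine congrArg _ (Units.ext ?_)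
  simp only [Units.val_mul, xx_val, mul_add, add_mul, one_mul, mul_one, single_mul_single_same,
    single_mul_single_of_ne _ _ _ _ h'.symm, single_mul_single_of_ne _ _ _ _ h''.symm, add_zero]
  abel

theorem xp_tw (h : i ≠ j) (d : Fin n → Kˣ) (σ : RingAut K) (t : K) :
    ProjGenLinGroup.mk (dg d * al σ 1 (xx h t) * (dg d)⁻¹) = xp h (d i * σ t * (d j : K)⁻¹) := by
  refine congrArg _ ?_
  rw [mul_inv_eq_iff_eq_mul, pos_TAct]
  refine Units.ext ?_
  ext a b
  show (diagonal (fun i => (d i : K)) * (1 + single i j t : Matrix (Fin n) (Fin n) K).map σ :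
    Matrix (Fin n) (Fin n) K) a b = ((1 + single i j (d i * σ t * (d j : K)⁻¹)) *
      diagonal (fun i => (d i : K)) : Matrix (Fin n) (Fin n) K) a b
  rw [diagonal_mul, mul_diagonal, map_apply, Matrix.add_apply, Matrix.add_apply, map_add, mul_add, add_mul]
  congr 1
  · rcases eq_or_ne a b with rfl | hab
    · simp
    · simp [one_apply_ne hab]
  · rw [single_apply, single_apply]
    split_ifs with hc
    · obtain ⟨rfl, rfl⟩ := hc
      rw [inv_mul_cancel_right₀ (d j).ne_zero]
    · simp

theorem xx_gr (h : i ≠ j) (t : K) : al (1 : RingAut K) (-1) (xx h t) = xx h.symm (-t) := by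
  have h1 : (xx h t)⁻¹ = xx h (-t) :=
    inv_eq_of_mul_eq_one_right (by rw [← add_UBas2, add_neg_cancel, zero_UBas2])
  rw [neg_TAct]
  refine Units.ext ?_
  show (((xx h t)⁻¹ : GL (Fin n) K) : Matrix (Fin n) (Fin n) K)ᵀ = _
  rw [h1, xx_val, xx_val, transpose_add, transpose_one, transpose_single]

end Vale.Agent.P240
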