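import Vale.Agent.P240.U.Bas

/-! P240 U/Conj (automorphisms of PSL, n odd; auxiliary names end with `_UConj`). perm_sg: permutation matrix (Equiv.Perm.permMatrix, or Matrix.GeneralLinearGroup.mkOfDetNeZero). es_conj: a permutation carrying s to r (Equiv.Perm.exists_extending_pair or Finset.equivOfCardEq with Equiv.extendSubtype), then multiply by dg (det inverse in one place), which commutes with sg. es_card: sg r = c z (sg s) z⁻¹ with c * c = 1; for c = -1 replace s by its complement; compare the ranks of sg - 1 (Matrix.rank_diagonal, rank_mul_eq_left_of_isUnit_det) or the characteristic polynomials. binom: Nat.choose_le_succ_of_lt_half_left, Nat.choose_symm, Nat.choose_two_right. -/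

namespace Vale.Agent.P240

open Matrix

variable {n : ℕ} {K : Type} [Field K] {i j k : Fin n} {r s : Finset (Fin n)}
  {φ : ProjGenLinGroup (Fin n) K → ProjGenLinGroup (Fin n) K}

theorem perm_sg (π : Equiv.Perm (Fin n)) : ∃ w : GL (Fin n) K, ∀ s : Finset (Fin n),
    w * sg K s * w⁻¹ = sg K (s.map π.toEmbedding) := by
  have h0 : (Equiv.Perm.permMatrix K π.symm).det ≠ 0 := by
    rw [det_permutation]
    rcases Int.units_eq_one_or (Equiv.Perm.sign π.symm) with h | h <;> rw [h] <;> simp
  refine ⟨GeneralLinearGroup.mkOfDetNeZero _ h0, fun s => ?_⟩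
  rw [mul_inv_eq_iff_eq_mul]
  refine Units.ext ?_
  rw [Units.val_mul, Units.val_mul, sg_val, sg_val]
  ext a b
  rw [mul_diagonal, diagonal_mul]
  by_cases h : π.symm a = b
  · subst h
    rw [mul_comm]
    simp only [Finset.mem_map_equiv]
  · have h1 : (GeneralLinearGroup.mkOfDetNeZero _ h0 : GL (Fin n) K).val a b = 0 := by
      show Equiv.Perm.permMatrix K π.symm a b = 0
      simp [Equiv.Perm.permMatrix, PEquiv.toMatrix_apply, h]
    rw [h1, zero_mul, mul_zero]

theorem fix_UConj (w : GL (Fin n) K) : ∃ d : Fin n → Kˣ, w * dg d ∈ SG n K := by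
  rcases Nat.eq_zero_or_pos n with rfl | hn
  · exact ⟨1, Units.ext det_isEmpty⟩
  · refine ⟨Pi.mulSingle ⟨0, hn⟩ (GeneralLinearGroup.det w)⁻¹, ?_⟩
    have h1 : ∀ d : Fin n → Kˣ, GeneralLinearGroup.det (dg d) = ∏ i, d i := fun d => by
      refine Units.ext ?_
      rw [Units.coe_prod]
      exact det_diagonal
    rw [SG, MonoidHom.mem_ker, map_mul, h1, Finset.prod_pi_mulSingle', if_pos (Finset.mem_univ _),
      mul_inv_cancel]

theorem es_conj (h : r.card = s.card) : ∃ z ∈ Pr (SG n K), es K r = z * es K s * z⁻¹ := by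
  obtain ⟨π, rfl⟩ := Equiv.Perm.exists_map_finset_eq s r h.symm
  obtain ⟨w, hw⟩ := perm_sg (K := K) π
  obtain ⟨d, hd⟩ := fix_UConj w
  refine ⟨_, ⟨_, hd, rfl⟩, ?_⟩
  have h1 : dg d * sg K s = sg K s * dg d := by rw [sg, dg_mul, dg_mul, mul_comm]
  rw [es, es, ← map_inv, ← map_mul, ← map_mul, ← hw, mul_assoc w (dg d), h1, _root_.mul_inv_rev,
    ← mul_assoc, ← mul_assoc, mul_inv_cancel_right]

open Classical in
theorem rk_UConj {f g : Fin n → K} {w : GL (Fin n) K}
    (h : diagonal f = w.val * diagonal g * (w⁻¹).val) (c : K) :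
    (Finset.univ.filter fun j => f j ≠ c).card = (Finset.univ.filter fun j => g j ≠ c).card := by
  have h1 : ∀ f : Fin n → K, diagonal (fun j => f j - c) = diagonal f - c • 1 := fun f => by
    rw [smul_one_eq_diagonal, diagonal_sub]
  have h2 : diagonal (fun j => f j - c) = w.val * diagonal (fun j => g j - c) * (w⁻¹).val := by
    rw [h1, h1, mul_sub, sub_mul, ← h, mul_smul_comm, mul_one, smul_mul_assoc, Units.mul_inv]
  have h3 := congrArg rank h2
  rw [rank_mul_eq_left_of_isUnit_det _ _ ((isUnit_iff_isUnit_det _).1 (Units.isUnit _)),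
    rank_mul_eq_right_of_isUnit_det _ _ ((isUnit_iff_isUnit_det _).1 (Units.isUnit _)),
    rank_diagonal, rank_diagonal, Fintype.card_subtype, Fintype.card_subtype] at h3
  simpa only [sub_ne_zero] using h3

theorem es_card (h2 : (2 : K) ≠ 0) {z : ProjGenLinGroup (Fin n) K} (h : es K r = z * es K s * z⁻¹) :
    r.card = s.card ∨ r.card + s.card = n := by
  classical
  obtain ⟨w, rfl⟩ := ProjGenLinGroup.mk_surjective z
  rw [es, es, ← map_inv, ← map_mul, ← map_mul, ProjGenLinGroup.mk_eq_mk_iff] at h
  obtain ⟨u, hu⟩ := h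
  have h1 : diagonal (fun j => if j ∈ r then -(u : K) else u) =
      w.val * diagonal (fun j => if j ∈ s then (-1 : K) else 1) * (w⁻¹).val := by
    have e1 := congrArg Units.val hu
    rw [Units.val_mul, Units.val_mul, Units.val_mul, sg_val, sg_val] at e1
    have e2 : (GeneralLinearGroup.scalar (Fin n) u).val = diagonal fun _ => (u : K) := rfl
    rw [e2, diagonal_mul_diagonal] at e1
    simpa [apply_ite Units.val] using e1
  have h3 : (-1 : K) ≠ 1 := fun e => h2 (by linear_combination -e)
  have h4 : ∀ s : Finset (Fin n),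
      (Finset.univ.filter fun j => (if j ∈ s then (-1 : K) else 1) ≠ 1) = s := fun s => by
    ext j
    by_cases hj : j ∈ s <;> simp [hj, h3]
  have h5 : ∀ s : Finset (Fin n),
      (Finset.univ.filter fun j => (if j ∈ s then (-1 : K) else 1) ≠ -1) = sᶜ := fun s => by
    ext j
    by_cases hj : j ∈ s <;> simp [hj, h3.symm]
  have h6 := rk_UConj h1 1
  have h7 := rk_UConj h1 (-1)
  rw [h4] at h6
  rw [h5] at h7
  have h8 := Finset.card_add_card_compl r
  have h9 := Finset.card_add_card_compl s
  rw [Fintype.card_fin] at h8 h9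
  by_cases e1 : (u : K) = 1
  · rw [e1, h4] at h6
    exact Or.inl h6
  by_cases e2 : (u : K) = -1
  · have e3 : (Finset.univ.filter fun j => (if j ∈ r then -(u : K) else u) ≠ 1) = rᶜ := by
      ext j
      by_cases hj : j ∈ r <;> simp [hj, h3, e2]
    rw [e3] at h6
    omega
  · rw [Finset.filter_true_of_mem fun j _ => ?_, Finset.card_fin] at h6 h7
    · omega
    · split_ifs
      · exact fun e => e1 (neg_injective e)
      · exact e2
    · split_ifs
      · exact fun e => e2 (neg_eq_iff_eq_neg.1 e)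
      · exact e1

theorem le_UConj : ∀ k j : ℕ, 0 < j → j < k → k ≤ k.choose j := by
  intro k
  induction k with
  | zero => exact fun j _ h => absurd h (Nat.not_lt_zero _)
  | succ k ih =>
    intro j h0 h1
    obtain ⟨j, rfl⟩ := Nat.exists_eq_succ_of_ne_zero h0.ne'
    rcases Nat.eq_zero_or_pos j with rfl | hj
    · exact (Nat.choose_one_right _).ge
    · have h2 := ih j hj (by omega)
      have h3 : 0 < k.choose j.succ := Nat.choose_pos (by omega)
      rw [Nat.choose_succ_succ]
      omega

theorem binom {m : ℕ} (h : n.choose m ≤ n) (h0 : 0 < m) (h1 : m < n) : m = 1 ∨ m + 1 = n := by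
  by_contra hc
  obtain ⟨k, rfl⟩ := Nat.exists_eq_succ_of_ne_zero (h0.trans h1).ne'
  obtain ⟨j, rfl⟩ := Nat.exists_eq_succ_of_ne_zero h0.ne'
  have h2 := le_UConj k j (by omega) (by omega)
  have h3 := le_UConj k j.succ (by omega) (by omega)
  rw [Nat.choose_succ_succ] at h
  omega

end Vale.Agent.P240
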