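import Vale.Agent.P240.T.Act

/-! P240 U/Defs: automorphisms of PSL, definitions. -/

namespace Vale.Agent.P240

open Matrix

/-- `φ` restricts to an automorphism of `L`. -/
structure Au {P : Type} [Group P] (L : Subgroup P) (φ : P → P) : Prop where
  mem : ∀ x ∈ L, φ x ∈ L
  mul : ∀ x ∈ L, ∀ y ∈ L, φ (x * y) = φ x * φ y
  inj : ∀ x ∈ L, ∀ y ∈ L, φ x = φ y → x = y
  surj : ∀ y ∈ L, ∃ x ∈ L, φ x = y

/-- The diagonal matrix with `-1` on `s`. -/
def sg {n : ℕ} (K : Type) [Field K] (s : Finset (Fin n)) : GL (Fin n) K :=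
  dg fun j => if j ∈ s then -1 else 1

/-- Its class. -/
def es {n : ℕ} (K : Type) [Field K] (s : Finset (Fin n)) : ProjGenLinGroup (Fin n) K :=
  ProjGenLinGroup.mk (sg K s)

/-- An elementary matrix. -/
def xx {n : ℕ} {K : Type} [Field K] {i j : Fin n} (h : i ≠ j) (t : K) : GL (Fin n) K :=
  SpecialLinearGroup.toGL (SpecialLinearGroup.transvection h t)

/-- Its class. -/
def xp {n : ℕ} {K : Type} [Field K] {i j : Fin n} (h : i ≠ j) (t : K) : ProjGenLinGroup (Fin n) K :=
  ProjGenLinGroup.mk (xx h t)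

theorem xx_val {n : ℕ} {K : Type} [Field K] {i j : Fin n} (h : i ≠ j) (t : K) :
    (xx h t : Matrix (Fin n) (Fin n) K) = 1 + single i j t := rfl

theorem sg_val {n : ℕ} (K : Type) [Field K] (s : Finset (Fin n)) :
    (sg K s : Matrix (Fin n) (Fin n) K) =
      diagonal fun j => (((if j ∈ s then -1 else 1 : Kˣ)) : K) := rfl

end Vale.Agent.P240
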