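import Vale.Agent.P240.U.Defs

/-! P240 U/Diag (automorphisms of PSL, n odd; auxiliary names end with `_UDiag`). Simultaneous diagonalisation. Plan: the set J of joint eigenvectors (v with t i *ᵥ v = v or = -v for all i) spans: induction on a finset T of indices, v = (v + t i v) / 2 + (v - t i v) / 2 for v an eigenvector of all indices in T. Take a basis inside J (exists_linearIndependent, Module.Basis.mk, reindex to Fin n by finrank), y = matrix of columns (Pi.basisFun, Basis.toMatrix, invertibleToMatrix), t i * y = y * sg K s with s the indices of eigenvalue -1. -/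

namespace Vale.Agent.P240

open Matrix

variable {n : ℕ} {K : Type} [Field K] {i j k : Fin n} {r s : Finset (Fin n)}
  {φ : ProjGenLinGroup (Fin n) K → ProjGenLinGroup (Fin n) K}

theorem span_UDiag (h2 : (2 : K) ≠ 0) {ι : Type} (t : ι → Matrix (Fin n) (Fin n) K)
    (sq : ∀ a, t a * t a = 1) (comm : ∀ a b, t a * t b = t b * t a) (T : Finset ι)
    (v : Fin n → K) :
    v ∈ Submodule.span K {w | ∀ a ∈ T, t a *ᵥ w = w ∨ t a *ᵥ w = -w} := by
  classical
  induction T using Finset.induction_on generalizing v with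
  | empty => exact Submodule.subset_span fun a ha => absurd ha (Finset.notMem_empty a)
  | insert a T _ ih =>
    refine Submodule.span_le.2 (fun w hw => ?_) (ih v)
    have e : w = (2 : K)⁻¹ • (w + t a *ᵥ w) + (2 : K)⁻¹ • (w - t a *ᵥ w) := by
      rw [← smul_add, add_add_sub_cancel, ← two_smul K w, smul_smul, inv_mul_cancel₀ h2, one_smul]
    have k : ∀ b, t b *ᵥ (t a *ᵥ w) = t a *ᵥ (t b *ᵥ w) := fun b => by
      rw [mulVec_mulVec, mulVec_mulVec, comm]
    have k' : t a *ᵥ (t a *ᵥ w) = w := by rw [mulVec_mulVec, sq, one_mulVec]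
    rw [e]
    refine Submodule.add_mem _ (Submodule.smul_mem _ _ (Submodule.subset_span fun b hb => ?_))
      (Submodule.smul_mem _ _ (Submodule.subset_span fun b hb => ?_))
    · rcases Finset.mem_insert.1 hb with rfl | hb
      · exact Or.inl (by rw [mulVec_add, k', add_comm])
      · refine (hw b hb).imp (fun h => ?_) fun h => ?_
        · rw [mulVec_add, k, h]
        · rw [mulVec_add, k, h, mulVec_neg, neg_add]
    · rcases Finset.mem_insert.1 hb with rfl | hb
      · exact Or.inr (by rw [mulVec_sub, k', neg_sub])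
      · refine (hw b hb).imp (fun h => ?_) fun h => ?_
        · rw [mulVec_sub, k, h]
        · rw [mulVec_sub, k, h, mulVec_neg, neg_sub_neg, neg_sub]

theorem basis_UDiag {J : Set (Fin n → K)} (hJ : ∀ v, v ∈ Submodule.span K J) :
    ∃ b : Module.Basis (Fin n) K (Fin n → K), ∀ j, b j ∈ J := by
  obtain ⟨s, hs, h1, h2⟩ := exists_linearIndependent K J
  let b : Module.Basis s K (Fin n → K) := Module.Basis.mk h2 fun v _ => by
    rw [Subtype.range_coe_subtype, Set.ofPred_mem_eq, h1]
    exact hJ v
  refine ⟨b.reindex (b.indexEquiv (Pi.basisFun K (Fin n))), fun j => hs ?_⟩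
  rw [Module.Basis.reindex_apply, Module.Basis.mk_apply]
  exact Subtype.property _

theorem diag_GL (h2 : (2 : K) ≠ 0) {ι : Type} [Finite ι] (t : ι → GL (Fin n) K)
    (sq : ∀ a, t a * t a = 1) (comm : ∀ a b, t a * t b = t b * t a) :
    ∃ y : GL (Fin n) K, ∀ a, ∃ s, t a = y * sg K s * y⁻¹ := by
  classical
  have := Fintype.ofFinite ι
  obtain ⟨b, hb⟩ := basis_UDiag (span_UDiag h2 (fun a => (t a : Matrix (Fin n) (Fin n) K))
    (fun a => by rw [← Units.val_mul, sq, Units.val_one])
    (fun a b => by rw [← Units.val_mul, comm, Units.val_mul]) Finset.univ)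
  have := (Pi.basisFun K (Fin n)).invertibleToMatrix b
  refine ⟨unitOfInvertible ((Pi.basisFun K (Fin n)).toMatrix b), fun a =>
    ⟨Finset.univ.filter fun j => (t a : Matrix (Fin n) (Fin n) K) *ᵥ b j ≠ b j,
      eq_mul_inv_of_mul_eq (Units.ext ?_)⟩⟩
  rw [Units.val_mul, Units.val_mul, sg_val, val_unitOfInvertible]
  ext i j
  have e : ((t a : Matrix (Fin n) (Fin n) K) * (Pi.basisFun K (Fin n)).toMatrix b) i j =
      ((t a : Matrix (Fin n) (Fin n) K) *ᵥ b j) i := by
    simp [mul_apply, mulVec, dotProduct, Module.Basis.toMatrix_apply]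
  rw [e, mul_diagonal, Module.Basis.toMatrix_apply, Pi.basisFun_repr]
  by_cases h : (t a : Matrix (Fin n) (Fin n) K) *ᵥ b j = b j
  · simp [h]
  · rw [if_pos (by simpa using h), (hb j a (Finset.mem_univ _)).resolve_left h]
    simp

end Vale.Agent.P240
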