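import Vale.Agent.P240.U.Root
import Vale.Agent.P240.U.Bas

/-! P240 U/Dir (automorphisms of PSL, n odd; auxiliary names end with `_UDir`). root_map: apply root_char with p = ringChar K to u = φ (xp h t), using xp_props and Au.mul, Au.pow, Au.one. dir: if some φ (xp h a) = xp h a1 with h : i ≠ j and a ≠ 0, then for every k ≠ j and b the element φ (xp (j, k) b) is of the same type (otherwise it is xp (k, j) b1, which commutes with xp h a1 by xp_col; Au.inj and xp_ncomm give b = 0, and then φ 1 = xp _ 0). Apply this twice (with b = 1) to reach all pairs. Otherwise all are of the second type (a = 0 is trivial). -/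

namespace Vale.Agent.P240

open Matrix

variable {n : ℕ} {K : Type} [Field K] {i j k : Fin n} {r s : Finset (Fin n)}
  {φ : ProjGenLinGroup (Fin n) K → ProjGenLinGroup (Fin n) K}

theorem conj_UDir (s : Finset (Fin n)) (h : i ≠ j) (t : K) :
    es K s * xp h t = xp h ((((if i ∈ s then -1 else 1 : Kˣ)) : K) * t *
      (((if j ∈ s then -1 else 1 : Kˣ)) : K)) * es K s := by
  unfold es xp
  rw [← map_mul, ← map_mul]
  refine congrArg _ (Units.ext ?_)
  rw [Units.val_mul, Units.val_mul, xx_val, xx_val, sg_val]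
  ext a b
  rw [diagonal_mul, mul_diagonal, Matrix.add_apply, Matrix.add_apply, single_apply, single_apply]
  by_cases e : i = a ∧ j = b
  · obtain ⟨rfl, rfl⟩ := e
    rw [one_apply_ne h, if_pos (show i = i ∧ j = j from ⟨rfl, rfl⟩),
      if_pos (show i = i ∧ j = j from ⟨rfl, rfl⟩), zero_add, zero_add]
    by_cases k1 : j ∈ s
    · simp [k1]
    · simp [k1]
  · rw [if_neg e, if_neg e, add_zero]
    by_cases k1 : a = b
    · subst k1
      rw [mul_comm]
    · rw [one_apply_ne k1, mul_zero, zero_mul]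

theorem pow_UDir (h : i ≠ j) (t : K) (m : ℕ) : xp h t ^ m = xp h (m * t) := by
  induction m with
  | zero => rw [pow_zero, Nat.cast_zero, zero_mul, xp_zero]
  | succ m ih => rw [pow_succ, ih, Nat.cast_succ, add_mul, one_mul, xp_add]

theorem xp_props {p : ℕ} [CharP K p] (h : i ≠ j) (t : K) :
    (∀ k, k ≠ i → k ≠ j → xp h t * es K {k} = es K {k} * xp h t) ∧ xp h t ^ p = 1 ∧
      es K {i} * xp h t * es K {i} * xp h t = 1 := by
  refine ⟨fun k k1 k2 => ?_, ?_, ?_⟩
  · rw [conj_UDir, if_neg (fun e => k1 (Finset.mem_singleton.1 e).symm),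
      if_neg (fun e => k2 (Finset.mem_singleton.1 e).symm), Units.val_one, one_mul, mul_one]
  · rw [pow_UDir, CharP.cast_eq_zero, zero_mul, xp_zero]
  · rw [conj_UDir, if_pos (Finset.mem_singleton_self i),
      if_neg (fun e => h (Finset.mem_singleton.1 e).symm), mul_assoc _ (es K {i}) (es K {i}), es_sq, mul_one,
      ← xp_add, Units.val_one, Units.val_neg, Units.val_one, mul_one, neg_one_mul, neg_add_cancel,
      xp_zero]

theorem root_map [Finite K] (h2 : (2 : K) ≠ 0) (hn : Odd n) (h3 : 3 ≤ n) (hφ : Au (Pr (SG n K)) φ)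
    (hE : ∀ i, φ (es K {i}) = es K {i}) (h : i ≠ j) (t : K) :
    (∃ t', φ (xp h t) = xp h t') ∨ ∃ t', φ (xp h t) = xp h.symm t' := by
  obtain ⟨h1, h4, h5⟩ := xp_props (p := ringChar K) h t
  have m := xp_mem h t
  have me : ∀ k : Fin n, es K {k} ∈ Pr (SG n K) := fun k => es_mem hn _
  refine root_char (p := ringChar K) h2 hn h3 h (fun k k1 k2 => ?_) ?_ ?_
  · rw [← hE k, ← hφ.mul _ m _ (me k), h1 k k1 k2, hφ.mul _ (me k) _ m]
  · rw [← hφ.pow m, h4, hφ.one]
  · rw [← hE i, ← hφ.mul _ (me i) _ m, ← hφ.mul _ (mul_mem (me i) m) _ (me i),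
      ← hφ.mul _ (mul_mem (mul_mem (me i) m) (me i)) _ m, h5, hφ.one]

theorem dir (hφ : Au (Pr (SG n K)) φ) (h : ∀ (i j : Fin n) (h : i ≠ j) (t : K),
      (∃ t', φ (xp h t) = xp h t') ∨ ∃ t', φ (xp h t) = xp h.symm t') :
    (∀ (i j : Fin n) (h : i ≠ j) (t : K), ∃ t', φ (xp h t) = xp h t') ∨
      ∀ (i j : Fin n) (h : i ≠ j) (t : K), ∃ t', φ (xp h t) = xp h.symm t' := by
  have step : ∀ (i j : Fin n) (e : i ≠ j) (a a1 : K), a ≠ 0 → φ (xp e a) = xp e a1 →
      ∀ (k : Fin n) (e' : j ≠ k) (b : K), ∃ b1, φ (xp e' b) = xp e' b1 := by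
    intro i j e a a1 a0 ha k e' b
    rcases h j k e' b with ok | ⟨b1, hb⟩
    · exact ok
    · have k1 : φ (xp e a * xp e' b) = φ (xp e' b * xp e a) := by
        rw [hφ.mul _ (xp_mem e a) _ (xp_mem e' b), hφ.mul _ (xp_mem e' b) _ (xp_mem e a), ha, hb]
        exact xp_col e e'.symm a1 b1
      have k2 := (xp_ncomm e e' (hφ.inj _ (mul_mem (xp_mem e a) (xp_mem e' b)) _
        (mul_mem (xp_mem e' b) (xp_mem e a)) k1)).resolve_left a0
      exact ⟨0, by rw [k2, xp_zero, hφ.one]⟩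
  by_cases hA : ∃ (i j : Fin n) (e : i ≠ j) (a a1 : K), a ≠ 0 ∧ φ (xp e a) = xp e a1
  · obtain ⟨i, j, e, a, a1, a0, ha⟩ := hA
    refine Or.inl fun k l e' b => ?_
    by_cases k1 : j = k
    · subst k1
      exact step i j e a a1 a0 ha l e' b
    · obtain ⟨b1, hb⟩ := step i j e a a1 a0 ha k k1 1
      exact step j k k1 1 b1 one_ne_zero hb l e' b
  · refine Or.inr fun i j e t => ?_
    by_cases t0 : t = 0
    · exact ⟨0, by rw [t0, xp_zero, xp_zero, hφ.one]⟩
    · exact (h i j e t).resolve_left fun ⟨t', ht⟩ => hA ⟨i, j, e, t, t', t0, ht⟩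

end Vale.Agent.P240
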