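import Vale.Agent.P240.U.Bas
import Vale.Agent.P240.U.Bas2

/-! P240 U/Fld (automorphisms of PSL, n odd; auxiliary names end with `_UFld`). Plan: choose f i j t; it is additive and injective (xp_add, xp_inj, Au.inj), and f i k (a b) = f i j a * f j k b for distinct i, j, k (xp_rel). With c i j = f i j 1 ≠ 0: c i k = c i j * c j k, hence c i j * c j i = 1; put d 0 = 1, d i = c i 0, so c i j = d i / d j. The maps g i j = f i j / c i j satisfy g i k (a b) = g i j a * g j k b and g 1 = 1, so g i k = g i j = g j k; all are equal to one map σ (n ≥ 3), a ring homomorphism (RingHom.mk', RingEquiv.ofBijective, Finite.injective_iff_bijective). -/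

namespace Vale.Agent.P240

open Matrix

variable {n : ℕ} {K : Type} [Field K] {i j k : Fin n} {r s : Finset (Fin n)}
  {φ : ProjGenLinGroup (Fin n) K → ProjGenLinGroup (Fin n) K}

theorem third_UFld (h3 : 3 ≤ n) (i j : Fin n) : ∃ k, k ≠ i ∧ k ≠ j := by
  by_contra h
  have h1 : (Finset.univ : Finset (Fin n)) ⊆ {i, j} := fun k _ => by
    by_contra hk
    simp only [Finset.mem_insert, Finset.mem_singleton, not_or] at hk
    exact h ⟨k, hk⟩
  have h2 := (Finset.card_le_card h1).trans (Finset.card_le_two (a := i) (b := j))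
  rw [Finset.card_univ, Fintype.card_fin] at h2
  omega

theorem alg_UFld [Finite K] (h3 : 3 ≤ n) (F : Fin n → Fin n → K → K)
    (ha : ∀ i j, i ≠ j → ∀ a b, F i j (a + b) = F i j a + F i j b)
    (hi : ∀ i j, i ≠ j → ∀ a b, F i j a = F i j b → a = b)
    (hm : ∀ i j k, i ≠ j → j ≠ k → i ≠ k → ∀ a b, F i k (a * b) = F i j a * F j k b) :
    ∃ (d : Fin n → Kˣ) (σ : RingAut K), ∀ i j, i ≠ j → ∀ t,
      F i j t = d i * σ t * (d j : K)⁻¹ := by
  have h0 : ∀ i j, i ≠ j → F i j 0 = 0 := fun i j h => by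
    have := ha i j h 0 0
    rw [add_zero] at this
    exact left_eq_add.1 this
  have hc : ∀ i j, i ≠ j → F i j 1 ≠ 0 := fun i j h e =>
    one_ne_zero (hi i j h 1 0 (e.trans (h0 i j h).symm))
  have hcm : ∀ i j k, i ≠ j → j ≠ k → i ≠ k → F i k 1 = F i j 1 * F j k 1 :=
    fun i j k h1 h2 h4 => by rw [← hm i j k h1 h2 h4, mul_one]
  have hci : ∀ i j, i ≠ j → F i j 1 * F j i 1 = 1 := fun i j h => by
    obtain ⟨k, h1, h2⟩ := third_UFld h3 i j
    have e1 := hcm i j k h h2.symm h1.symm
    rw [hcm j i k h.symm h1.symm h2.symm, ← mul_assoc] at e1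
    exact mul_right_cancel₀ (hc i k h1.symm) (e1.symm.trans (one_mul _).symm)
  have hgm : ∀ i j k, i ≠ j → j ≠ k → i ≠ k → ∀ a b,
      F i k (a * b) / F i k 1 = F i j a / F i j 1 * (F j k b / F j k 1) :=
    fun i j k h1 h2 h4 a b => by rw [hm i j k h1 h2 h4, hcm i j k h1 h2 h4, div_mul_div_comm]
  have hrow : ∀ i j k, i ≠ j → i ≠ k → ∀ a, F i k a / F i k 1 = F i j a / F i j 1 := by
    intro i j k h1 h2 a
    rcases eq_or_ne j k with rfl | h
    · rfl
    · have := hgm i j k h1 h h2 a 1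
      rwa [mul_one, div_self (hc j k h), mul_one] at this
  have hcol : ∀ i j k, i ≠ k → j ≠ k → ∀ a, F i k a / F i k 1 = F j k a / F j k 1 := by
    intro i j k h1 h2 a
    rcases eq_or_ne i j with rfl | h
    · rfl
    · have := hgm i j k h h2 h1 1 a
      rwa [one_mul, div_self (hc i j h), one_mul] at this
  have o : Fin n := ⟨0, by omega⟩
  obtain ⟨p, hp, -⟩ := third_UFld h3 o o
  have hall0 : ∀ i j, i ≠ j → i ≠ p → ∀ a, F i j a / F i j 1 = F o p a / F o p 1 :=
    fun i j h1 h2 a => (hrow i p j h2 h1 a).trans (hcol i o p h2 hp.symm a)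
  have hall : ∀ i j, i ≠ j → ∀ a, F i j a / F i j 1 = F o p a / F o p 1 := by
    intro i j h a
    obtain ⟨k, h1, h2⟩ := third_UFld h3 j p
    exact (hcol i k j h h1 a).trans (hall0 k j h1 h2 a)
  let σ : K →+* K :=
    { toFun := fun a => F o p a / F o p 1
      map_one' := div_self (hc o p hp.symm)
      map_mul' := fun a b => by
        obtain ⟨k, h1, h2⟩ := third_UFld h3 o p
        rw [hgm o k p h1.symm h2 hp.symm, hall o k h1.symm, hall k p h2]
      map_zero' := by rw [h0 o p hp.symm, zero_div]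
      map_add' := fun a b => by rw [ha o p hp.symm, add_div] }
  have hd : ∀ i, (if i = o then 1 else F i o 1) ≠ 0 := fun i => by
    split_ifs with h
    · exact one_ne_zero
    · exact hc i o h
  refine ⟨fun i => Units.mk0 _ (hd i),
    RingEquiv.ofBijective σ (Finite.injective_iff_bijective.1 σ.injective), fun i j h t => ?_⟩
  have e1 : F i j 1 * (if j = o then 1 else F j o 1) = if i = o then 1 else F i o 1 := by
    split_ifs with h1 h2 h2
    · exact absurd (h2.trans h1.symm) h
    · rw [mul_one, h1]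
    · rw [← h2]
      exact hci i j h
    · exact (hcm i j o h h1 h2).symm
  change F i j t = (if i = o then 1 else F i o 1) * (F o p t / F o p 1) *
    (if j = o then 1 else F j o 1)⁻¹
  rw [← e1, ← hall i j h, mul_right_comm, mul_inv_cancel_right₀ (hd j), mul_div_cancel₀ _ (hc i j h)]

theorem fld [Finite K] (h3 : 3 ≤ n) (hφ : Au (Pr (SG n K)) φ)
    (h : ∀ (i j : Fin n) (h : i ≠ j) (t : K), ∃ t', φ (xp h t) = xp h t') :
    ∃ (d : Fin n → Kˣ) (σ : RingAut K), ∀ (i j : Fin n) (h : i ≠ j) (t : K),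
      φ (xp h t) = xp h (d i * σ t * (d j : K)⁻¹) := by
  choose f hf using h
  obtain ⟨d, σ, hd⟩ := alg_UFld h3 (fun i j t => if h : i ≠ j then f i j h t else t)
    (fun i j h a b => by
      simp only [dif_pos h]
      refine xp_inj h ?_
      rw [← hf, xp_add, hφ.mul _ (xp_mem h a) _ (xp_mem h b), hf, hf, xp_add])
    (fun i j h a b e => by
      simp only [dif_pos h] at e
      refine xp_inj h (hφ.inj _ (xp_mem h a) _ (xp_mem h b) ?_)
      rw [hf, hf, e])
    (fun i j k h1 h2 h4 a b => by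
      simp only [dif_pos h1, dif_pos h2, dif_pos h4]
      refine xp_inj h4 ?_
      have e := congrArg φ (xp_rel h1 h2 h4 a b)
      rw [hφ.mul _ (xp_mem h1 a) _ (xp_mem h2 b),
        hφ.mul _ (xp_mem h4 _) _ (mul_mem (xp_mem h2 b) (xp_mem h1 a)),
        hφ.mul _ (xp_mem h2 b) _ (xp_mem h1 a), hf, hf, hf, xp_rel h1 h2 h4] at e
      exact (mul_right_cancel e).symm)
  refine ⟨d, σ, fun i j h t => ?_⟩
  have e := hd i j h t
  simp only [dif_pos h] at e
  rw [hf, e]

end Vale.Agent.P240
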