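import Vale.Agent.P240.U.Bas2

/-! P240 U/Gen (automorphisms of PSL, n odd; auxiliary names end with `_UGen`). sg_ind: SpecialLinearGroup.diagonal_transvection_induction' for the statement P (mk (toGL M)); diag2n h c is the product w(c) w(-1) with w(c) = x_ij(c) x_ji(-c⁻¹) x_ij(c). fix_sigma: y σ(x) y⁻¹ = c x with x = xx h t; the left side minus 1 squares to zero, the entry (k, k) of (c x - 1) ^ 2 with k not i, j gives c = 1; so σ t • (y E y⁻¹) = t • E with E = single i j 1; t = 1 gives y E y⁻¹ = E. -/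

namespace Vale.Agent.P240

open Matrix

variable {n : ℕ} {K : Type} [Field K] {i j k : Fin n} {r s : Finset (Fin n)}
  {φ : ProjGenLinGroup (Fin n) K → ProjGenLinGroup (Fin n) K}

open SpecialLinearGroup in
theorem dec_UGen (h : i ≠ j) {c : K} (hc : c ≠ 0) :
    diag2n h c hc = transvection h c * transvection h.symm (-c⁻¹) * transvection h c *
      transvection h (-1) * transvection h.symm 1 * transvection h (-1) := by
  refine Subtype.ext ?_
  simp only [Matrix.SpecialLinearGroup.coe_mul, transvection_coe, diag2n_coe]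
  simp only [mul_add, add_mul, mul_one, one_mul, single_mul_single_same,
    single_mul_single_of_ne _ _ _ _ h, single_mul_single_of_ne _ _ _ _ h.symm, zero_mul, add_zero]
  ext a b
  have h' := h.symm
  by_cases h1 : i = a
  · subst h1
    by_cases h3 : i = b
    · subst h3
      simp [h, h', hc]
    · by_cases h4 : j = b
      · subst h4
        simp [h, h', hc]
      · simp [h, h', h3, h4]
  · by_cases h2 : j = a
    · subst h2
      by_cases h3 : i = b
      · subst h3
        simp [h, h', hc]
      · by_cases h4 : j = b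
        · subst h4
          simp [h, h', hc]
        · simp [h, h', h3, h4]
    · simp [h1, h2, Ne.symm h1, Ne.symm h2, diagonal_apply, one_apply]

theorem sg_ind (h3 : 3 ≤ n) (P : ProjGenLinGroup (Fin n) K → Prop)
    (h1 : ∀ (i j : Fin n) (h : i ≠ j) (t : K), P (xp h t))
    (hmul : ∀ a ∈ Pr (SG n K), ∀ b ∈ Pr (SG n K), P a → P b → P (a * b)) :
    ∀ a ∈ Pr (SG n K), P a := by
  rintro _ ⟨g, hg, rfl⟩
  have hn : Nontrivial (Fin n) := Fin.nontrivial_iff_two_le.2 (by omega)
  have hm : ∀ M : SpecialLinearGroup (Fin n) K,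
      ProjGenLinGroup.mk (SpecialLinearGroup.toGL M) ∈ Pr (SG n K) := fun M =>
    ⟨_, SpecialLinearGroup.coeToGL_det M, rfl⟩
  have hM : ∀ A B : SpecialLinearGroup (Fin n) K,
      P (ProjGenLinGroup.mk (SpecialLinearGroup.toGL A)) →
      P (ProjGenLinGroup.mk (SpecialLinearGroup.toGL B)) →
      P (ProjGenLinGroup.mk (SpecialLinearGroup.toGL (A * B))) := fun A B hA hB => by
    rw [map_mul, map_mul]
    exact hmul _ (hm A) _ (hm B) hA hB
  have hd : (g : Matrix (Fin n) (Fin n) K).det = 1 := by
    have h1 : GeneralLinearGroup.det g = 1 := hg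
    exact congrArg Units.val h1
  have e : g = SpecialLinearGroup.toGL ⟨g, hd⟩ := Units.ext rfl
  rw [e]
  refine SpecialLinearGroup.diagonal_transvection_induction'
    (fun M => P (ProjGenLinGroup.mk (SpecialLinearGroup.toGL M))) _ (fun i j hij c hc => ?_) h1 hM
  rw [dec_UGen hij hc]
  exact hM _ _ (hM _ _ (hM _ _ (hM _ _ (hM _ _ (h1 _ _ _ _) (h1 _ _ _ _)) (h1 _ _ _ _))
    (h1 _ _ _ _)) (h1 _ _ _ _)) (h1 _ _ _ _)

theorem fix_sigma (h3 : 3 ≤ n) {y : GL (Fin n) K} {σ : RingAut K}
    (h : ∀ (i j : Fin n) (h : i ≠ j) (t : K),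
      ProjGenLinGroup.mk (y * al σ 1 (xx h t) * y⁻¹) = xp h t) : σ = 1 := by
  obtain ⟨i, j, hij⟩ : ∃ i j : Fin n, i ≠ j :=
    ⟨⟨0, by omega⟩, ⟨1, by omega⟩, fun e => absurd (congrArg Fin.val e) (by simp)⟩
  obtain ⟨N, hN⟩ : ∃ N : Matrix (Fin n) (Fin n) K,
      N = (y : Matrix (Fin n) (Fin n) K) * single i j 1 *
        ((y⁻¹ : GL (Fin n) K) : Matrix (Fin n) (Fin n) K) := ⟨_, rfl⟩
  have hEE : (single i j 1 : Matrix (Fin n) (Fin n) K) * single i j 1 = 0 :=
    single_mul_single_of_ne _ _ _ _ hij.symm _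
  have hNN : N * N = 0 := by
    rw [hN, mul_assoc, mul_assoc, mul_assoc, Units.inv_mul_cancel_left, ← mul_assoc (single i j 1),
      hEE, zero_mul, mul_zero]
  have key : ∀ t : K, σ t • N = t • single i j 1 := by
    intro t
    obtain ⟨u, hu⟩ := ProjGenLinGroup.mk_eq_mk_iff.1 (h i j hij t)
    have e1 : ((al σ 1 (xx hij t) : GL (Fin n) K) : Matrix (Fin n) (Fin n) K) =
        1 + σ t • single i j 1 := by
      ext a b
      rw [al, if_pos rfl, GeneralLinearGroup.map_apply, xx_val]
      simp only [Matrix.add_apply, one_apply, Matrix.smul_apply, single_apply, map_add,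
        RingHom.coe_coe]
      split_ifs <;> simp
    have e2 := congrArg Units.val hu
    rw [Units.val_mul, Units.val_mul, Units.val_mul, e1, xx_val, mul_add, add_mul, mul_one,
      Units.mul_inv, mul_smul_comm, smul_mul_assoc, ← hN, GeneralLinearGroup.coe_scalar,
      scalar_apply, ← smul_eq_mul_diagonal] at e2
    have e3 : ((u : K) * σ t) • N = (1 - (u : K)) • 1 + t • single i j 1 := by
      rw [smul_single, smul_eq_mul, mul_one, sub_smul, one_smul, mul_smul, sub_add_eq_add_sub, ← e2,
        smul_add, add_sub_cancel_left]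
    have e4 : (((u : K) * σ t) • N) * (((u : K) * σ t) • N) = 0 := by
      rw [smul_mul_smul_comm, hNN, smul_zero]
    rw [e3] at e4
    simp only [mul_add, add_mul, smul_mul_smul_comm, hEE, mul_one, one_mul] at e4
    have e5 := congrFun (congrFun e4 i) i
    simp [hij.symm] at e5
    have e6 : (u : K) = 1 := (sub_eq_zero.1 e5).symm
    rwa [e6, one_mul, sub_self, zero_smul, zero_add] at e3
  have k1 := key 1
  rw [map_one, one_smul, one_smul] at k1
  ext t
  have k2 := key t
  rw [k1] at k2
  simpa using congrFun (congrFun k2 i) j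

end Vale.Agent.P240
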