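import Vale.Agent.P240.U.Cnt
import Vale.Agent.P240.U.Dir
import Vale.Agent.P240.U.Fld
import Vale.Agent.P240.U.Gen
import Vale.Agent.P240.T.Final

/-! P240 U/Main: every automorphism of PSL (n odd) is diagonal, field, graph. -/

namespace Vale.Agent.P240

open Matrix

variable {n : ℕ} {K : Type} [Field K]
  {φ : ProjGenLinGroup (Fin n) K → ProjGenLinGroup (Fin n) K}

/-- `φ` is a standard automorphism on PSL. -/
def Std (φ : ProjGenLinGroup (Fin n) K → ProjGenLinGroup (Fin n) K) : Prop :=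
  ∃ (y : ProjGenLinGroup (Fin n) K) (q : RingAut K × ℤˣ),
    ∀ a ∈ Pr (SG n K), φ a = y * act n K q a * y⁻¹

theorem std_conj (z : ProjGenLinGroup (Fin n) K) (h : Std fun a => MulAut.conj z (φ a)) :
    Std φ := by
  obtain ⟨y, q, h⟩ := h
  refine ⟨z⁻¹ * y, q, fun a ha => ?_⟩
  have h1 : z * φ a * z⁻¹ = _ := h a ha
  calc φ a = z⁻¹ * (z * φ a * z⁻¹) * z := by group
    _ = _ := by rw [h1]; group

theorem std_act (p : RingAut K × ℤˣ) (h : Std fun a => act n K p (φ a)) : Std φ := by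
  obtain ⟨y, q, h⟩ := h
  refine ⟨act n K p⁻¹ y, p⁻¹ * q, fun a ha => ?_⟩
  have h1 : act n K p (φ a) = _ := h a ha
  rw [map_mul (act n K), MulAut.mul_apply, ← map_inv (act n K p⁻¹), ← map_mul, ← map_mul, ← h1,
    ← MulAut.mul_apply, ← map_mul, inv_mul_cancel, map_one, MulAut.one_apply]

theorem conj_mem_UMain (z a : ProjGenLinGroup (Fin n) K) (ha : a ∈ Pr (SG n K)) :
    z * a * z⁻¹ ∈ Pr (SG n K) := by
  obtain ⟨g, hg, rfl⟩ := ha
  obtain ⟨w, rfl⟩ := ProjGenLinGroup.mk_surjective z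
  refine ⟨w * g * w⁻¹, MonoidHom.mem_ker.2 ?_, by simp only [map_mul, map_inv]⟩
  rw [map_mul, map_mul, map_inv, MonoidHom.mem_ker.1 hg, mul_one, mul_inv_cancel]

theorem conj_iff_UMain (z a : ProjGenLinGroup (Fin n) K) :
    a ∈ Pr (SG n K) ↔ MulAut.conj z a ∈ Pr (SG n K) := by
  refine ⟨conj_mem_UMain z a, fun h => ?_⟩
  have h1 := conj_mem_UMain z⁻¹ _ h
  have e : z⁻¹ * MulAut.conj z a * z⁻¹⁻¹ = a := by rw [MulAut.conj_apply]; group
  rwa [e] at h1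

theorem act_mem_UMain (q : RingAut K × ℤˣ) (a : ProjGenLinGroup (Fin n) K) (ha : a ∈ Pr (SG n K)) :
    act n K q a ∈ Pr (SG n K) := by
  obtain ⟨g, hg, rfl⟩ := ha
  rw [act_mk]
  exact Subgroup.mem_map_of_mem _ (alsg_TFin _ _ hg)

theorem act_iff_UMain (q : RingAut K × ℤˣ) (a : ProjGenLinGroup (Fin n) K) :
    a ∈ Pr (SG n K) ↔ act n K q a ∈ Pr (SG n K) := by
  refine ⟨act_mem_UMain q a, fun h => ?_⟩
  have h1 := act_mem_UMain q⁻¹ _ h
  rwa [← MulAut.mul_apply, ← map_mul, inv_mul_cancel, map_one, MulAut.one_apply] at h1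

theorem std_root [Finite K] (h3 : 3 ≤ n) (hφ : Au (Pr (SG n K)) φ)
    (h : ∀ (i j : Fin n) (h : i ≠ j) (t : K), ∃ t', φ (xp h t) = xp h t') : Std φ := by
  obtain ⟨d, σ, hd⟩ := fld h3 hφ h
  refine ⟨ProjGenLinGroup.mk (dg d), (σ, 1), sg_ind h3 _ (fun i j h t => ?_)
    fun a ha b hb h1 h2 => ?_⟩
  · rw [hd, ← xp_tw, map_mul, map_mul, map_inv, xp, act_mk]
  · rw [hφ.mul a ha b hb, h1, h2, map_mul]
    group

theorem aut_PSL [Finite K] (h2 : (2 : K) ≠ 0) (hn : Odd n) (h3 : 3 ≤ n)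
    (hφ : Au (Pr (SG n K)) φ) : Std φ := by
  obtain ⟨y, hy⟩ := diag_P h2 hn (fun i : Fin n => φ (es K {i})) (fun i => hφ.mem _ (es_mem hn _))
    (fun i => by rw [← hφ.mul _ (es_mem hn _) _ (es_mem hn _), es_sq, hφ.one])
    (fun i j => by rw [← hφ.mul _ (es_mem hn _) _ (es_mem hn _), es_comm,
      hφ.mul _ (es_mem hn _) _ (es_mem hn _)])
  refine std_conj y⁻¹ ?_
  have hφ1 := hφ.comp _ (conj_iff_UMain y⁻¹)
  obtain ⟨π, hπ⟩ := ext_E h2 hn h3 hφ1 fun i => by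
    obtain ⟨s, hs⟩ := hy i
    refine ⟨s, ?_⟩
    rw [hs, MulAut.conj_apply]
    group
  obtain ⟨w, hw⟩ := perm_sg (K := K) π⁻¹
  refine std_conj (ProjGenLinGroup.mk w) ?_
  have hφ2 := hφ1.comp _ (conj_iff_UMain (ProjGenLinGroup.mk w))
  have hE : ∀ i : Fin n, MulAut.conj (ProjGenLinGroup.mk w) (MulAut.conj y⁻¹ (φ (es K {i}))) =
      es K {i} := by
    intro i
    rw [hπ i, MulAut.conj_apply, es, ← map_inv, ← map_mul, ← map_mul, hw, Finset.map_singleton]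
    simp [es]
  rcases dir hφ2 (fun i j h t => root_map h2 hn h3 hφ2 hE h t) with h | h
  · exact std_root h3 hφ2 h
  · refine std_act (1, -1) (std_root h3 (hφ2.comp _ (act_iff_UMain (1, -1))) fun i j hij t => ?_)
    obtain ⟨t', ht⟩ := h i j hij t
    refine ⟨-t', ?_⟩
    rw [ht, xp, act_mk, xx_gr]
    rfl

theorem au_equiv {P : Type} [Group P] {L : Subgroup P} (α : L ≃* L) :
    ∃ φ : P → P, Au L φ ∧ ∀ a : L, φ a = α a := by
  classical
  have key : ∀ a : L, (if h : (a : P) ∈ L then (α ⟨a, h⟩ : P) else a) = α a := fun a => dif_pos a.2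
  refine ⟨fun a => if h : a ∈ L then (α ⟨a, h⟩ : P) else a, ⟨fun x hx => ?_, fun x hx y hy => ?_,
    fun x hx y hy h => ?_, fun y hy => ⟨α.symm ⟨y, hy⟩, Subtype.mem _, ?_⟩⟩, key⟩
  · rw [dif_pos hx]
    exact Subtype.mem _
  · rw [dif_pos hx, dif_pos hy, dif_pos (L.mul_mem hx hy), ← Subgroup.coe_mul, ← map_mul]
    rfl
  · rw [dif_pos hx, dif_pos hy] at h
    exact congrArg Subtype.val (α.injective (Subtype.ext h))
  · rw [key, α.apply_symm_apply]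

theorem cmp_PSL [Finite K] (h2 : (2 : K) ≠ 0) (hn : Odd n) (h3 : 3 ≤ n) {G : Type} [Group G]
    {L : Subgroup G} (e : L ≃* Pr (SG n K)) : Cmp L (Pr (SG n K)) ⊤ ⊤ := by
  refine ⟨e, fun x hx hxx => ?_⟩
  let c : MulAut L := L.normalizerMonoidHom ⟨x, hx⟩
  have hc : ∀ l : L, (c l : G) = x * l * x⁻¹ := fun l => rfl
  obtain ⟨φ, hφ, hv⟩ := au_equiv (e.symm.trans (c.trans e))
  have hv' : ∀ l : L, φ (e l) = e (c l) := fun l => by
    rw [hv]
    simp
  obtain ⟨y, ⟨σ, ε⟩, h⟩ := aut_PSL h2 hn h3 hφ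
  obtain ⟨Y, rfl⟩ := ProjGenLinGroup.mk_surjective y
  refine ⟨Y, trivial, σ, ?_, ε, trivial, fun l l' hl g hg => ?_⟩
  · refine fix_sigma h3 (y := Y * al σ ε Y) fun i j hij t => ?_
    obtain ⟨l, hl⟩ := e.surjective ⟨xp hij t, xp_mem hij t⟩
    have e1 : c (c l) = l := Subtype.ext (by
      rw [hc, hc, ← mul_assoc, ← mul_assoc, hxx, one_mul, mul_assoc, ← _root_.mul_inv_rev, hxx,
        inv_one, mul_one])
    have e2 : φ (φ (e l)) = e l := by rw [hv', hv', e1]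
    rw [hl] at e2
    have e3 : φ (φ (xp hij t)) = xp hij t := e2
    rw [h _ (hφ.mem _ (xp_mem hij t)), h _ (xp_mem hij t)] at e3
    rw [← e3, ← Int.units_mul_self ε, al_comp, xp]
    simp only [map_mul, map_inv, act_mk]
    group
  · have e1 : l' = c l := Subtype.ext (hl.trans (hc l).symm)
    rw [e1, ← hv', h _ (e l).2, hg, act_mk, map_mul, map_mul, map_inv]

end Vale.Agent.P240
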