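import Vale.Agent.P240.U.DiagP
import Vale.Agent.P240.U.Bas2

/-! P240 U/Root (automorphisms of PSL, n odd; auxiliary names end with `_URoot`). Plan: u = mk g, g ^ p = scalar c; scale g by μ with μ ^ p = c⁻¹ (bijective_frobenius on the finite field) so g ^ p = 1. lift_comm: g commutes with sg {k} for k not i, j, so row k and column k of g vanish off the diagonal; (g ^ p) k k = (g k k) ^ p gives g k k = 1 (apply to Pi.single k 1). sg {i} g sg {i} g = scalar c, entry (k, k) gives c = 1 (n ≥ 3 gives such a k). g - 1 is nilpotent (sub_pow_char_of_commute), so its trace vanishes (Matrix.isNilpotent_trace_of_isNilpotent): with a = g i i, b = g i j, c = g j i, d = g j j one has a + d = 2, a a - b c = 1 = d d - b c, b (a - d) = 0 = c (a - d), hence a = d = 1, b c = 0. -/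

namespace Vale.Agent.P240

open Matrix

variable {n : ℕ} {K : Type} [Field K] {i j k : Fin n} {r s : Finset (Fin n)}
  {φ : ProjGenLinGroup (Fin n) K → ProjGenLinGroup (Fin n) K}

theorem mat_URoot (h2 : (2 : K) ≠ 0) (h : i ≠ j) (hk : k ≠ i ∧ k ≠ j) {p : ℕ}
    {G : Matrix (Fin n) (Fin n) K} (hp : (G - 1) ^ p = 0)
    (off : ∀ x, x ≠ i → x ≠ j → ∀ y, y ≠ x → G x y = 0 ∧ G y x = 0) {c : K} {e : Fin n → K}
    (ei : e i = -1) (eo : ∀ x, x ≠ i → e x = 1)
    (hs : diagonal e * G * diagonal e * G * scalar (Fin n) c = 1) :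
    (∃ t, G = 1 + single i j t) ∨ ∃ t, G = 1 + single j i t := by
  have one : ∀ x, x ≠ i → x ≠ j → G x x = 1 := by
    intro x h1 h3
    have key : ∀ m : ℕ, ((G - 1) ^ m) x x = (G x x - 1) ^ m := by
      intro m
      induction m with
      | zero => simp
      | succ m ih =>
        rw [pow_succ', mul_apply, Finset.sum_eq_single x, ih, pow_succ', Matrix.sub_apply, one_apply_eq]
        · intro y _ hy
          rw [Matrix.sub_apply, (off x h1 h3 y hy).1, one_apply_ne hy.symm, sub_zero, zero_mul]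
        · simp
    have := key p
    rw [hp, Matrix.zero_apply] at this
    exact sub_eq_zero.1 (eq_zero_of_pow_eq_zero this.symm)
  have ent : ∀ x, (∑ l, e x * G x l * e l * G l x) * c = 1 := fun x => by
    have := congrFun (congrFun hs x) x
    rw [scalar_apply, mul_diagonal, one_apply_eq, mul_apply] at this
    simpa only [mul_diagonal, diagonal_mul] using this
  have c1 : c = 1 := by
    have := ent k
    rw [Finset.sum_eq_single k, one k hk.1 hk.2, eo k hk.1] at this
    · simpa using this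
    · intro y _ hy
      rw [(off k hk.1 hk.2 y hy).2, mul_zero]
    · simp
  have e1 := ent i
  have e2 := ent j
  rw [Fintype.sum_eq_add i j h (fun l hl => by rw [(off l hl.1 hl.2 i hl.1.symm).1, mul_zero]), c1,
    ei, eo j h.symm] at e1
  rw [Fintype.sum_eq_add i j h (fun l hl => by rw [(off l hl.1 hl.2 j hl.2.symm).1, mul_zero]), c1,
    ei, eo j h.symm] at e2
  have tr := (Matrix.isNilpotent_trace_of_isNilpotent ⟨p, hp⟩).eq_zero
  rw [trace, Fintype.sum_eq_add i j h (fun l hl => by
    rw [diag_apply, Matrix.sub_apply, one l hl.1 hl.2, one_apply_eq, sub_self])] at tr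
  simp only [diag_apply, Matrix.sub_apply, one_apply_eq] at tr
  have ad : G i i = G j j := by
    refine sub_eq_zero.1 ((mul_eq_zero.1 (?_ : 2 * (G i i - G j j) = 0)).resolve_left h2)
    linear_combination e1 - e2 - (G i i - G j j) * tr
  have a1 : G i i = 1 := by
    refine sub_eq_zero.1 ((mul_eq_zero.1 (?_ : 2 * (G i i - 1) = 0)).resolve_left h2)
    linear_combination tr + ad
  have d1 : G j j = 1 := ad ▸ a1
  have bc : G i j * G j i = 0 := by
    rw [a1] at e1
    linear_combination -e1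
  have fin : ∀ {i j : Fin n}, i ≠ j → G i i = 1 → G j j = 1 → G j i = 0 →
      (∀ x, x ≠ i → x ≠ j → G x x = 1 ∧ ∀ y, y ≠ x → G x y = 0 ∧ G y x = 0) →
      G = 1 + single i j (G i j) := by
    intro i j h a1 d1 z o
    ext x y
    rw [Matrix.add_apply]
    by_cases xy : x = y
    · subst xy
      rw [one_apply_eq, single_apply_of_ne _ _ _ _ _ (fun q => h (q.1.trans q.2.symm)), add_zero]
      by_cases xi : x = i
      · rw [xi, a1]
      by_cases xj : x = j
      · rw [xj, d1]
      exact (o x xi xj).1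
    rw [one_apply_ne xy, zero_add]
    by_cases q : i = x ∧ j = y
    · rw [← q.1, ← q.2, single_apply_same]
    rw [single_apply_of_ne _ _ _ _ _ q]
    by_cases xi : x = i
    · exact ((o y (fun e => xy (xi.trans e.symm)) (fun e => q ⟨xi.symm, e.symm⟩)).2 x xy).2
    by_cases xj : x = j
    · by_cases yi : y = i
      · rw [xj, yi, z]
      · exact ((o y yi (fun e => xy (xj.trans e.symm))).2 x xy).2
    exact ((o x xi xj).2 y (Ne.symm xy)).1
  rcases mul_eq_zero.1 bc with z | z
  · exact Or.inr ⟨_, fin h.symm d1 a1 z fun x x1 x2 => ⟨one x x2 x1, off x x2 x1⟩⟩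
  · exact Or.inl ⟨_, fin h a1 d1 z fun x x1 x2 => ⟨one x x1 x2, off x x1 x2⟩⟩

theorem sq_URoot (s : Finset (Fin n)) : sg K s * sg K s = 1 := by
  refine Units.ext ?_
  rw [Units.val_mul, sg_val, diagonal_mul_diagonal, Units.val_one, ← diagonal_one]
  congr 1
  funext x
  split_ifs <;> simp

theorem root_char [Finite K] (h2 : (2 : K) ≠ 0) (hn : Odd n) (h3 : 3 ≤ n) {p : ℕ} [CharP K p]
    (h : i ≠ j) {u : ProjGenLinGroup (Fin n) K}
    (hc : ∀ k, k ≠ i → k ≠ j → u * es K {k} = es K {k} * u) (hp : u ^ p = 1)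
    (hi : es K {i} * u * es K {i} * u = 1) : (∃ t, u = xp h t) ∨ ∃ t, u = xp h.symm t := by
  have pp : Fact p.Prime := ⟨CharP.char_is_prime K p⟩
  have : Nonempty (Fin n) := ⟨i⟩
  obtain ⟨g0, rfl⟩ := ProjGenLinGroup.mk_surjective u
  rw [← map_pow, ← ProjGenLinGroup.mk_one, ProjGenLinGroup.mk_eq_mk_iff] at hp
  obtain ⟨c, hp⟩ := hp
  obtain ⟨μ, hμ⟩ := (bijective_frobenius K p).2 c
  rw [frobenius_def] at hμ
  have μ0 : μ ≠ 0 := fun e => c.ne_zero (by rw [← hμ, e, zero_pow pp.out.ne_zero])
  have hμ' : Units.mk0 μ μ0 ^ p = c := Units.ext hμ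
  obtain ⟨g, hg, gp⟩ : ∃ g : GL (Fin n) K, ProjGenLinGroup.mk g0 = ProjGenLinGroup.mk g ∧
      g ^ p = 1 := by
    refine ⟨g0 * GeneralLinearGroup.scalar (Fin n) (Units.mk0 μ μ0),
      ProjGenLinGroup.mk_eq_mk_iff.2 ⟨_, rfl⟩, ?_⟩
    rw [Commute.mul_pow (GeneralLinearGroup.scalar_commute _ g0).symm, ← map_pow, hμ', hp]
  rw [hg] at hc hi ⊢
  obtain ⟨k, hk⟩ : ∃ k : Fin n, k ≠ i ∧ k ≠ j := by
    by_contra hn'
    have h4 : (Finset.univ : Finset (Fin n)) ⊆ {i, j} := fun x _ => by
      by_contra hx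
      rw [Finset.mem_insert, Finset.mem_singleton, not_or] at hx
      exact hn' ⟨x, hx⟩
    have h5 := (Finset.card_le_card h4).trans Finset.card_le_two
    rw [Finset.card_univ, Fintype.card_fin] at h5
    omega
  rw [es, ← map_mul, ← map_mul, ← map_mul, ← ProjGenLinGroup.mk_one,
    ProjGenLinGroup.mk_eq_mk_iff] at hi
  obtain ⟨c', hi⟩ := hi
  have hi' := congrArg Units.val hi
  rw [Units.val_mul, Units.val_mul, Units.val_mul, Units.val_mul, sg_val,
    GeneralLinearGroup.coe_scalar, Units.val_one] at hi'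
  have key := mat_URoot (p := p) (G := g) h2 h hk ?_ ?_ (by simp) (fun x hx => by simp [hx]) hi'
  · exact key.imp (fun ⟨t, ht⟩ => ⟨t, congrArg _ (Units.ext ht)⟩)
      fun ⟨t, ht⟩ => ⟨t, congrArg _ (Units.ext ht)⟩
  · rw [sub_pow_char_of_commute p (Commute.one_right _), one_pow, ← Units.val_pow_eq_pow_val, gp,
      Units.val_one, sub_self]
  · intro x x1 x2 y hy
    have e := congrArg Units.val (lift_comm hn (sq_URoot {x}) (hc x x1 x2).symm)
    rw [Units.val_mul, Units.val_mul, sg_val] at e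
    have e1 := congrFun (congrFun e x) y
    have e2 := congrFun (congrFun e y) x
    rw [diagonal_mul, mul_diagonal] at e1 e2
    simp only [Finset.mem_singleton, hy, if_true, if_false, Units.val_neg, Units.val_one] at e1 e2
    constructor
    · refine (mul_eq_zero.1 (?_ : 2 * g.1 x y = 0)).resolve_left h2
      linear_combination -e1
    · refine (mul_eq_zero.1 (?_ : 2 * g.1 y x = 0)).resolve_left h2
      linear_combination e2

end Vale.Agent.P240
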